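import Mathlib

/-!
Numerical shadow of the Foulkes inequality: for `a ≤ b`, the number of `a`-multisets of
`b`-multisets of an `n`-set is at most the number of `b`-multisets of `a`-multisets.
-/

namespace Vale.Agent.Lib.P181

open Nat

/-- `(k + 1) * multichoose y (k + 1) = (y + k) * multichoose y k`. -/
theorem mc_succ_mul (y k : ℕ) :
    (k + 1) * Nat.multichoose y (k + 1) = (y + k) * Nat.multichoose y k := by
  cases y with
  | zero =>
    cases k with
    | zero => simp
    | succ k => simp [Nat.multichoose_zero_succ]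
  | succ y =>
    rw [Nat.multichoose_eq, Nat.multichoose_eq]
    have h := Nat.add_one_mul_choose_eq (y + k) k
    have e1 : y + 1 + (k + 1) - 1 = y + k + 1 := by omega
    have e2 : y + 1 + k - 1 = y + k := by omega
    rw [e1, e2]
    linarith

theorem mc_three (a : ℕ) : 2 * Nat.multichoose 3 a = (a + 1) * (a + 2) := by
  induction a with
  | zero => simp
  | succ a ih =>
    have h := mc_succ_mul 3 a
    have h2 : (a + 1) * (2 * Nat.multichoose 3 (a + 1)) = (a + 1) * ((a + 1 + 1) * (a + 1 + 2)) := by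
      calc (a + 1) * (2 * Nat.multichoose 3 (a + 1))
          = 2 * ((a + 1) * Nat.multichoose 3 (a + 1)) := by ring
        _ = 2 * ((3 + a) * Nat.multichoose 3 a) := by rw [h]
        _ = (3 + a) * (2 * Nat.multichoose 3 a) := by ring
        _ = (3 + a) * ((a + 1) * (a + 2)) := by rw [ih]
        _ = (a + 1) * ((a + 1 + 1) * (a + 1 + 2)) := by ring
    exact Nat.eq_of_mul_eq_mul_left (Nat.succ_pos a) h2

theorem mc_ge_sq (n : ℕ) (hn : 4 ≤ n) (a : ℕ) (ha : 1 ≤ a) :
    (a + 1) * (a + 1) ≤ Nat.multichoose n a := by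
  induction a, ha using Nat.le_induction with
  | base =>
    rw [Nat.multichoose_eq]
    simp
    omega
  | succ a ha ih =>
    have h := mc_succ_mul n a
    have h2 : (a + 1) * ((a + 1 + 1) * (a + 1 + 1)) ≤ (a + 1) * Nat.multichoose n (a + 1) := by
      rw [h]
      calc (a + 1) * ((a + 1 + 1) * (a + 1 + 1))
          ≤ (4 + a) * ((a + 1) * (a + 1)) := by nlinarith
        _ ≤ (n + a) * ((a + 1) * (a + 1)) := by
            apply Nat.mul_le_mul_right; omega
        _ ≤ (n + a) * Nat.multichoose n a := Nat.mul_le_mul_left _ ih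
    exact Nat.le_of_mul_le_mul_left h2 (Nat.succ_pos a)

/-- Key inequality, written without subtraction: `n = m + 2`, `b = a + 1 + c`. -/
theorem key_ineq (m a c : ℕ) :
    (a + 1 + c) * (a + 1) * Nat.multichoose (m + 2) (a + 1 + c)
      ≤ Nat.multichoose (m + 2) a * Nat.multichoose (m + 2) (a + 1 + c) * (c + 1)
        + a * (a + 1 + c + 1) * Nat.multichoose (m + 2) a := by
  rcases Nat.eq_zero_or_pos a with rfl | ha
  · simp
    rw [Nat.mul_comm]
    apply Nat.mul_le_mul_left
    omega
  · rcases m with _ | _ | m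
    · -- n = 2
      rw [Nat.multichoose_two, Nat.multichoose_two]
      nlinarith
    · -- n = 3
      have hX := mc_three a
      have hY := mc_three (a + 1 + c)
      set X := Nat.multichoose 3 a
      set Y := Nat.multichoose 3 (a + 1 + c)
      have h4 : 4 * ((a + 1 + c) * (a + 1) * Y) ≤ 4 * (X * Y * (c + 1) + a * (a + 1 + c + 1) * X) := by
        have e1 : 4 * ((a + 1 + c) * (a + 1) * Y) = 2 * ((a + 1 + c) * (a + 1)) * (2 * Y) := by ring
        have e2 : 4 * (X * Y * (c + 1) + a * (a + 1 + c + 1) * X)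
            = (2 * X) * (2 * Y) * (c + 1) + 2 * (a * (a + 1 + c + 1)) * (2 * X) := by ring
        rw [e1, e2, hX, hY]
        nlinarith [Nat.zero_le (a * c), Nat.zero_le (a * a * c), Nat.zero_le (a * c * c),
          Nat.zero_le (a * a * c * c), Nat.zero_le (a * a * a * c)]
      exact Nat.le_of_mul_le_mul_left h4 (by norm_num)
    · -- n ≥ 4
      have hX := mc_ge_sq (m + 4) (by omega) a ha
      have e : m + 1 + 1 + 2 = m + 4 := by omega
      rw [e]
      set X := Nat.multichoose (m + 4) a
      set Y := Nat.multichoose (m + 4) (a + 1 + c)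
      have h1 : (a + 1 + c) * (a + 1) ≤ X * (c + 1) := by
        have h0 : a + 1 + c ≤ (a + 1) * (c + 1) := by nlinarith [Nat.zero_le (a * c)]
        calc (a + 1 + c) * (a + 1) ≤ (a + 1) * (c + 1) * (a + 1) := Nat.mul_le_mul_right _ h0
          _ = (a + 1) * (a + 1) * (c + 1) := by ring
          _ ≤ X * (c + 1) := Nat.mul_le_mul_right _ hX
      calc (a + 1 + c) * (a + 1) * Y ≤ X * (c + 1) * Y := Nat.mul_le_mul_right _ h1
        _ = X * Y * (c + 1) := by ring
        _ ≤ X * Y * (c + 1) + a * (a + 1 + c + 1) * X := Nat.le_add_right _ _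

/-- Inequality (II). -/
theorem cross_ineq (n a b : ℕ) (hn : 2 ≤ n) (hab : a + 1 ≤ b) :
    (Nat.multichoose n a + b) * (Nat.multichoose n (b + 1) + a)
      ≤ (Nat.multichoose n (a + 1) + b) * (Nat.multichoose n b + a) := by
  obtain ⟨m, rfl⟩ : ∃ m, n = m + 2 := ⟨n - 2, by omega⟩
  obtain ⟨c, rfl⟩ : ∃ c, b = a + 1 + c := ⟨b - (a + 1), by omega⟩
  have hX := mc_succ_mul (m + 2) a
  have hY := mc_succ_mul (m + 2) (a + 1 + c)
  have hK := key_ineq m a c
  set X := Nat.multichoose (m + 2) a
  set X' := Nat.multichoose (m + 2) (a + 1)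
  set Y := Nat.multichoose (m + 2) (a + 1 + c)
  set Y' := Nat.multichoose (m + 2) (a + 1 + c + 1)
  have hmul : (a + 1) * (a + 1 + c + 1) * ((X + (a + 1 + c)) * (Y' + a))
      ≤ (a + 1) * (a + 1 + c + 1) * ((X' + (a + 1 + c)) * (Y + a)) := by
    have e1 : (a + 1) * (a + 1 + c + 1) * ((X + (a + 1 + c)) * (Y' + a))
        = (a + 1) * (X + (a + 1 + c)) * ((a + 1 + c + 1) * Y' + (a + 1 + c + 1) * a) := by ring
    have e2 : (a + 1) * (a + 1 + c + 1) * ((X' + (a + 1 + c)) * (Y + a))
        = (a + 1 + c + 1) * (Y + a) * ((a + 1) * X' + (a + 1) * (a + 1 + c)) := by ring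
    rw [e1, e2, hX, hY]
    have hid : (a + 1) * (X + (a + 1 + c)) * ((m + 2 + (a + 1 + c)) * Y + (a + 1 + c + 1) * a)
        + (m + 1) * (X * Y * (c + 1) + a * (a + 1 + c + 1) * X)
        = (a + 1 + c + 1) * (Y + a) * ((m + 2 + a) * X + (a + 1) * (a + 1 + c))
        + (m + 1) * ((a + 1 + c) * (a + 1) * Y) := by ring
    have hK' := Nat.mul_le_mul_left (m + 1) hK
    omega
  exact Nat.le_of_mul_le_mul_left hmul (by positivity)

/-- `Q(a, b)`. -/
theorem ratio_ineq (n : ℕ) (hn : 2 ≤ n) (a : ℕ) : ∀ b, a ≤ b →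
    (b + 1) * Nat.multichoose (Nat.multichoose n (b + 1)) a
      ≤ (Nat.multichoose n a + b) * Nat.multichoose (Nat.multichoose n b) a := by
  induction a with
  | zero =>
    intro b _
    simp
  | succ a ih =>
    intro b hb
    have h1 := mc_succ_mul (Nat.multichoose n (b + 1)) a
    have h2 := mc_succ_mul (Nat.multichoose n b) a
    have h3 := ih b (by omega)
    have h4 := cross_ineq n a b hn hb
    set xb := Nat.multichoose n b
    set xb' := Nat.multichoose n (b + 1)
    set xa := Nat.multichoose n a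
    set xa' := Nat.multichoose n (a + 1)
    have hmul : (a + 1) * ((b + 1) * Nat.multichoose xb' (a + 1))
        ≤ (a + 1) * ((xa' + b) * Nat.multichoose xb (a + 1)) := by
      calc (a + 1) * ((b + 1) * Nat.multichoose xb' (a + 1))
          = (b + 1) * ((a + 1) * Nat.multichoose xb' (a + 1)) := by ring
        _ = (b + 1) * ((xb' + a) * Nat.multichoose xb' a) := by rw [h1]
        _ = (xb' + a) * ((b + 1) * Nat.multichoose xb' a) := by ring
        _ ≤ (xb' + a) * ((xa + b) * Nat.multichoose xb a) := Nat.mul_le_mul_left _ h3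
        _ = ((xa + b) * (xb' + a)) * Nat.multichoose xb a := by ring
        _ ≤ ((xa' + b) * (xb + a)) * Nat.multichoose xb a := Nat.mul_le_mul_right _ h4
        _ = (xa' + b) * ((xb + a) * Nat.multichoose xb a) := by ring
        _ = (xa' + b) * ((a + 1) * Nat.multichoose xb (a + 1)) := by rw [h2]
        _ = (a + 1) * ((xa' + b) * Nat.multichoose xb (a + 1)) := by ring
    exact Nat.le_of_mul_le_mul_left hmul (Nat.succ_pos a)

/-- The dimension inequality for `n ≥ 2`. -/
theorem mc_mc_le_of_two_le (n : ℕ) (hn : 2 ≤ n) (a b : ℕ) (hab : a ≤ b) :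
    Nat.multichoose (Nat.multichoose n b) a ≤ Nat.multichoose (Nat.multichoose n a) b := by
  induction b, hab using Nat.le_induction with
  | base => exact le_rfl
  | succ b hb ih =>
    have h1 := ratio_ineq n hn a b hb
    have h2 := mc_succ_mul (Nat.multichoose n a) b
    have hmul : (b + 1) * Nat.multichoose (Nat.multichoose n (b + 1)) a
        ≤ (b + 1) * Nat.multichoose (Nat.multichoose n a) (b + 1) := by
      calc (b + 1) * Nat.multichoose (Nat.multichoose n (b + 1)) a
          ≤ (Nat.multichoose n a + b) * Nat.multichoose (Nat.multichoose n b) a := h1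
        _ ≤ (Nat.multichoose n a + b) * Nat.multichoose (Nat.multichoose n a) b :=
            Nat.mul_le_mul_left _ ih
        _ = (b + 1) * Nat.multichoose (Nat.multichoose n a) (b + 1) := h2.symm
    exact Nat.le_of_mul_le_mul_left hmul (Nat.succ_pos b)

/-- The dimension inequality for all `n`. -/
theorem mc_mc_le (n a b : ℕ) (hab : a ≤ b) :
    Nat.multichoose (Nat.multichoose n b) a ≤ Nat.multichoose (Nat.multichoose n a) b := by
  rcases Nat.lt_or_ge n 2 with h | h
  · interval_cases n
    · -- n = 0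
      rcases Nat.eq_zero_or_pos a with rfl | ha
      · simp
      · obtain ⟨a', rfl⟩ : ∃ a', a = a' + 1 := ⟨a - 1, by omega⟩
        obtain ⟨b', rfl⟩ : ∃ b', b = b' + 1 := ⟨b - 1, by omega⟩
        simp [Nat.multichoose_zero_succ]
    · -- n = 1
      simp [Nat.multichoose_one]
  · exact mc_mc_le_of_two_le n h a b hab

end Vale.Agent.Lib.P181
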